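import Vale.Agent.P088.R2.H644.W.Flat
import Vale.Agent.P088.R2.H644.W.Prof2
import Vale.Agent.P088.R2.H747.S.Zn

/-!
# P088, zone RSn: the flat slots and the Hessian of `Φ(l x + l y) + e^{l x + l y} S(|x - y|²)`
-/

open Set Filter
open scoped ContDiff Topology

noncomputable section

namespace Vale.Agent.P088.R2.H312.S

open Vale.Agent.P088.LR Vale.Agent.P088.HY Vale.Agent.P088.R2.H961.GW Vale.Agent.P088.R2.H644
open Vale.Agent.P088.R2.H644.Ch Vale.Agent.P088.R2.H747.SW Vale.Agent.P088.R2.H960.W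

variable {n : ℕ} {s₁ s₂ : MF n} {Ω : Set (VV n)} {W f g : VV n → ℝ} {z : VV n}

/-! ## Slots with the identity tensor -/

theorem sx_D (s : MF n) (i : Fin n) (f : VV n → ℝ) : (slx (fun _ => 1) s).D i f = dx i f :=
  Dx_one i f

theorem sy_D (s : MF n) (i : Fin n) (f : VV n → ℝ) : (sly (fun _ => 1) s).D i f = dy i f :=
  Dy_one i f

theorem sx_s (h : ∀ z ∈ Ω, s₁ z.1 = 1) (hz : z ∈ Ω) (i j : Fin n) :
    (slx (fun _ => 1) s₁).s i j z = if i = j then 1 else 0 := by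
  show s₁ z.1 i j = _
  rw [h z hz, Matrix.one_apply]

theorem sy_s (h : ∀ z ∈ Ω, s₂ z.2 = 1) (hz : z ∈ Ω) (i j : Fin n) :
    (sly (fun _ => 1) s₂).s i j z = if i = j then 1 else 0 := by
  show s₂ z.2 i j = _
  rw [h z hz, Matrix.one_apply]

theorem sx_Ds (hΩ : IsOpen Ω) (h : ∀ z ∈ Ω, s₁ z.1 = 1) (hz : z ∈ Ω) (i j k : Fin n) :
    (slx (fun _ => 1) s₁).D i ((slx (fun _ => 1) s₁).s j k) z = 0 := by
  rw [D_congr _ hΩ (g := fun _ => if j = k then (1 : ℝ) else 0)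
    (fun z hz => sx_s h hz j k) i hz, D_const]

theorem sy_Ds (hΩ : IsOpen Ω) (h : ∀ z ∈ Ω, s₂ z.2 = 1) (hz : z ∈ Ω) (i j k : Fin n) :
    (sly (fun _ => 1) s₂).D i ((sly (fun _ => 1) s₂).s j k) z = 0 := by
  rw [D_congr _ hΩ (g := fun _ => if j = k then (1 : ℝ) else 0)
    (fun z hz => sy_s h hz j k) i hz, D_const]

theorem sx_η (s : MF n) (i : Fin n) (z : VV n) : (slx (fun _ => 1) s).η i z = 0 := by
  simp [Sl.η, slx]

theorem sy_η (s : MF n) (i : Fin n) (z : VV n) : (sly (fun _ => 1) s).η i z = 0 := by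
  simp [Sl.η, sly]

theorem sx_Hc (hΩ : IsOpen Ω) (h : ∀ z ∈ Ω, s₁ z.1 = 1) (hW : Sm Ω W) (hz : z ∈ Ω)
    (i l : Fin n) : (slx (fun _ => 1) s₁).Hc W i l z = dx i (dx l W) z := by
  unfold Sl.Hc
  simp only [sx_Ds hΩ h hz, sx_η, sx_D, sx_s h hz, zero_mul, mul_zero, add_zero, sub_zero]
  simp only [ite_mul, one_mul, zero_mul]
  rw [sum_ite2, dx_dx_comm hΩ hW l i hz]
  ring

theorem sy_Hc (hΩ : IsOpen Ω) (h : ∀ z ∈ Ω, s₂ z.2 = 1) (hW : Sm Ω W) (hz : z ∈ Ω)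
    (i l : Fin n) : (sly (fun _ => 1) s₂).Hc W i l z = dy i (dy l W) z := by
  unfold Sl.Hc
  simp only [sy_Ds hΩ h hz, sy_η, sy_D, sy_s h hz, zero_mul, mul_zero, add_zero, sub_zero]
  simp only [ite_mul, one_mul, zero_mul]
  rw [sum_ite2, dy_dy_comm hΩ hW l i hz]
  ring

theorem sxy_Mc (h : ∀ z ∈ Ω, s₁ z.1 = 1) (h' : ∀ z ∈ Ω, s₂ z.2 = 1) (hz : z ∈ Ω)
    (i k : Fin n) : Mc (slx (fun _ => 1) s₁) (sly (fun _ => 1) s₂) W i k z =
      dx i (dy k W) z := by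
  unfold Mc
  simp only [sx_D, sy_D, sx_s h hz, sy_s h' hz]
  simp only [ite_mul, one_mul, zero_mul, eq_comm (a := k)]
  rw [sum_ite2]

/-- The Hessian form is the flat one. -/
theorem sxy_TH (hΩ : IsOpen Ω) (h : ∀ z ∈ Ω, s₁ z.1 = 1) (h' : ∀ z ∈ Ω, s₂ z.2 = 1)
    (hW : Sm Ω W) (hz : z ∈ Ω) (A B : V n) :
    TH (slx (fun _ => 1) s₁) (sly (fun _ => 1) s₂) W z A B = TH (fx n) (fy n) W z A B := by
  rw [f_TH hΩ hW hz]
  unfold TH
  simp only [sx_Hc hΩ h hW hz, sy_Hc hΩ h' hW hz, sxy_Mc h h' hz]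

theorem sx_ss (h : ∀ z ∈ Ω, s₁ z.1 = 1) (hz : z ∈ Ω) (A : Fin n → ℝ) :
    ss (slx (fun _ => 1) s₁) A z = ∑ i, A i ^ 2 := by
  unfold ss
  simp only [sx_s h hz, ite_mul, one_mul, zero_mul, Finset.sum_ite_eq, Finset.mem_univ, if_true]
  exact Finset.sum_congr rfl fun i _ => by ring

theorem sy_ss (h : ∀ z ∈ Ω, s₂ z.2 = 1) (hz : z ∈ Ω) (A : Fin n → ℝ) :
    ss (sly (fun _ => 1) s₂) A z = ∑ i, A i ^ 2 := by
  unfold ss
  simp only [sy_s h hz, ite_mul, one_mul, zero_mul, Finset.sum_ite_eq, Finset.mem_univ, if_true]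
  exact Finset.sum_congr rfl fun i _ => by ring

theorem sx_Γ (h : ∀ z ∈ Ω, s₁ z.1 = 1) (hz : z ∈ Ω) (f g : VV n → ℝ) :
    (slx (fun _ => 1) s₁).Γ f g z = ∑ i, dx i f z * dx i g z := by
  unfold Sl.Γ
  simp only [sx_s h hz, sx_D, ite_mul, one_mul, zero_mul, Finset.sum_ite_eq, Finset.mem_univ,
    if_true]

theorem sy_Γ (h : ∀ z ∈ Ω, s₂ z.2 = 1) (hz : z ∈ Ω) (f g : VV n → ℝ) :
    (sly (fun _ => 1) s₂).Γ f g z = ∑ i, dy i f z * dy i g z := by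
  unfold Sl.Γ
  simp only [sy_s h hz, sy_D, ite_mul, one_mul, zero_mul, Finset.sum_ite_eq, Finset.mem_univ,
    if_true]

/-! ## Functions `l x + l y` and `|x - y|²` -/

/-- `l x + l y`. -/
def uu0 (l : V n → ℝ) (z : VV n) : ℝ := l z.1 + l z.2

theorem uu0_sm {l : V n → ℝ} (hl : ContDiff ℝ ∞ l) : ContDiff ℝ ∞ (uu0 l) :=
  (hl.comp contDiff_fst).add (hl.comp contDiff_snd)

theorem dx_fst {f : V n → ℝ} (hf : Differentiable ℝ f) (i : Fin n) (z : VV n) :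
    dx i (fun z : VV n => f z.1) z = pd i f z.1 := by
  have h := (hf z.1).hasFDerivAt.comp z (hasFDerivAt_fst (𝕜 := ℝ) (E := V n) (F := V n) (p := z))
  rw [dx_eq]
  unfold dd pd
  have e : (fun z : VV n => f z.1) = f ∘ Prod.fst := rfl
  rw [e, h.fderiv]
  rfl

theorem dx_snd (f : V n → ℝ) (hf : Differentiable ℝ f) (i : Fin n) (z : VV n) :
    dx i (fun z : VV n => f z.2) z = 0 := by
  have h := (hf z.2).hasFDerivAt.comp z (hasFDerivAt_snd (𝕜 := ℝ) (E := V n) (F := V n) (p := z))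
  rw [dx_eq]
  unfold dd
  have e : (fun z : VV n => f z.2) = f ∘ Prod.snd := rfl
  rw [e, h.fderiv]
  simp

theorem dy_snd {f : V n → ℝ} (hf : Differentiable ℝ f) (i : Fin n) (z : VV n) :
    dy i (fun z : VV n => f z.2) z = pd i f z.2 := by
  have h := (hf z.2).hasFDerivAt.comp z (hasFDerivAt_snd (𝕜 := ℝ) (E := V n) (F := V n) (p := z))
  rw [dy_eq]
  unfold dd pd
  have e : (fun z : VV n => f z.2) = f ∘ Prod.snd := rfl
  rw [e, h.fderiv]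
  rfl

theorem dy_fst (f : V n → ℝ) (hf : Differentiable ℝ f) (i : Fin n) (z : VV n) :
    dy i (fun z : VV n => f z.1) z = 0 := by
  have h := (hf z.1).hasFDerivAt.comp z (hasFDerivAt_fst (𝕜 := ℝ) (E := V n) (F := V n) (p := z))
  rw [dy_eq]
  unfold dd
  have e : (fun z : VV n => f z.1) = f ∘ Prod.fst := rfl
  rw [e, h.fderiv]
  simp

end Vale.Agent.P088.R2.H312.S
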