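import Vale.Agent.P088.R2.H312.S.Fl

/-!
# P088, zone RSn: the Hessian and the gradient of `Φ(l x + l y) + e^{l x + l y} S(|x - y|²)`
-/

open Set Filter
open scoped ContDiff Topology

noncomputable section

namespace Vale.Agent.P088.R2.H312.S

open Vale.Agent.P088.LR Vale.Agent.P088.HY Vale.Agent.P088.R2.H961.GW Vale.Agent.P088.R2.H644
open Vale.Agent.P088.R2.H644.Ch Vale.Agent.P088.R2.H747.SW Vale.Agent.P088.R2.H960.W

variable {n : ℕ} {l : V n → ℝ} {z : VV n} {Φ Φ₁ Φ₂ S S₁ S₂ : ℝ → ℝ} {s : ℝ}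

/-! ## Profile -/

theorem Fs2_nonneg {t s : ℝ} (ht : 0 ≤ t) (hs : 0 ≤ s) : 0 ≤ Fs2 t s := by
  unfold Fs2
  have := St_succ_le' (mul_nonneg ht hs) 2
  have h2 : 0 ≤ St 2 (t * s) - St 3 (t * s) := by linarith
  positivity

theorem Ph2_nonneg {θ Li ε r₁ δ : ℝ} (h : PP θ Li ε r₁ δ) (h1 : ε ≤ 1) (h2 : 3 ≤ Li * r₁) {s : ℝ}
    (hs : 0 ≤ s) : 0 ≤ Ph2 θ Li ε r₁ δ s := by
  rcases lt_or_ge s (r₁ ^ 2) with h3 | h3
  · rw [h.Ph2_eq h3]
    exact Fs2_nonneg (sq_nonneg _) hs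
  · have hs0 : 0 < s := lt_of_lt_of_le (by have := h.r0; positivity) h3
    have hr : 0 < √s := Real.sqrt_pos.2 hs0
    have e := h.Ph2_L hr
    rw [Real.sq_sqrt hs] at e
    have hr1 : r₁ ≤ √s := by
      rw [← Real.sqrt_sq h.r0.le]
      exact Real.sqrt_le_sqrt h3
    have hL := h.Li_le √s
    have hLp := h.Lf_pos √s
    have hSp := h.S_pos hs0
    have he := h.ef_le hr
    have he1 := ez_lt_one h.θ0 hr
    have k1 : 3 ≤ Lf θ Li ε r₁ δ √s * √s := by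
      refine h2.trans ?_
      exact mul_le_mul hL hr1 h.r0.le hLp.le
    have k2 : 0 ≤ Lf θ Li ε r₁ δ √s ^ 2 - (1 + ef θ Li ε r₁ δ √s) * Lf θ Li ε r₁ δ √s / √s := by
      have e1 : Lf θ Li ε r₁ δ √s ^ 2 - (1 + ef θ Li ε r₁ δ √s) * Lf θ Li ε r₁ δ √s / √s =
          Lf θ Li ε r₁ δ √s / √s * (Lf θ Li ε r₁ δ √s * √s - (1 + ef θ Li ε r₁ δ √s)) := by
        field_simp
      rw [e1]
      have : 0 ≤ Lf θ Li ε r₁ δ √s * √s - (1 + ef θ Li ε r₁ δ √s) := by linarith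
      positivity
    have k3 : 0 ≤ 4 * s * Ph2 θ Li ε r₁ δ s := by
      rw [e]
      exact mul_nonneg hSp.le k2
    by_contra hc
    have : 4 * s * Ph2 θ Li ε r₁ δ s < 0 := mul_neg_of_pos_of_neg (by positivity) (not_le.1 hc)
    linarith

/-! ## The exponent -/

theorem uu0_eq (l : V n → ℝ) : uu0 l = fun z : VV n => l z.1 + l z.2 := rfl

theorem dx_uu0 (hl : ContDiff ℝ ∞ l) (i : Fin n) (z : VV n) : dx i (uu0 l) z = pd i l z.1 := by
  have hd : Differentiable ℝ l := hl.differentiable (by simp)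
  have h1 : DifferentiableAt ℝ (fun z : VV n => l z.1) z := (hd z.1).comp z differentiableAt_fst
  have h2 : DifferentiableAt ℝ (fun z : VV n => l z.2) z := (hd z.2).comp z differentiableAt_snd
  have e : dx i (uu0 l) z = dx i (fun z : VV n => l z.1) z + dx i (fun z : VV n => l z.2) z := by
    rw [dx_eq, dx_eq, dx_eq, uu0_eq, dd_add h1 h2]
  rw [e, dx_fst hd, dx_snd l hd, add_zero]

theorem dy_uu0 (hl : ContDiff ℝ ∞ l) (i : Fin n) (z : VV n) : dy i (uu0 l) z = pd i l z.2 := by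
  have hd : Differentiable ℝ l := hl.differentiable (by simp)
  have h1 : DifferentiableAt ℝ (fun z : VV n => l z.1) z := (hd z.1).comp z differentiableAt_fst
  have h2 : DifferentiableAt ℝ (fun z : VV n => l z.2) z := (hd z.2).comp z differentiableAt_snd
  have e : dy i (uu0 l) z = dy i (fun z : VV n => l z.1) z + dy i (fun z : VV n => l z.2) z := by
    rw [dy_eq, dy_eq, dy_eq, uu0_eq, dd_add h1 h2]
  rw [e, dy_fst l hd, dy_snd hd, zero_add]

theorem pd_sm (hl : ContDiff ℝ ∞ l) (i : Fin n) : ContDiff ℝ ∞ (pd i l) :=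
  (hl.fderiv_right (m := ∞) le_rfl).clm_apply contDiff_const

theorem GA_uu (hl : ContDiff ℝ ∞ l) (A B : V n) : GA (fx n) (fy n) (uu0 l) z A B =
    ∑ i, pd i l z.1 * A i + ∑ i, pd i l z.2 * B i := by
  unfold GA
  simp only [fx_Gr, fy_Gr, dx_uu0 hl, dy_uu0 hl]

theorem TH_uu (hl : ContDiff ℝ ∞ l) (h1 : ∀ i j, pd i (pd j l) z.1 = if i = j then s else 0)
    (h2 : ∀ i j, pd i (pd j l) z.2 = if i = j then s else 0) (A B : V n) :
    TH (fx n) (fy n) (uu0 l) z A B = s * (∑ i, A i ^ 2 + ∑ i, B i ^ 2) := by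
  rw [f_TH isOpen_univ (uu0_sm hl).contDiffOn (mem_univ z)]
  have d1 : ∀ j, Differentiable ℝ (pd j l) := fun j => (pd_sm hl j).differentiable (by simp)
  have e1 : ∀ i j, dx i (dx j (uu0 l)) z = if i = j then s else 0 := fun i j => by
    have : dx j (uu0 l) = fun z : VV n => pd j l z.1 := funext fun z => dx_uu0 hl j z
    rw [this, dx_fst (d1 j), h1]
  have e2 : ∀ i j, dx i (dy j (uu0 l)) z = 0 := fun i j => by
    have : dy j (uu0 l) = fun z : VV n => pd j l z.2 := funext fun z => dy_uu0 hl j z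
    rw [this, dx_snd _ (d1 j)]
  have e3 : ∀ i j, dy i (dy j (uu0 l)) z = if i = j then s else 0 := fun i j => by
    have : dy j (uu0 l) = fun z : VV n => pd j l z.2 := funext fun z => dy_uu0 hl j z
    rw [this, dy_snd (d1 j), h2]
  simp only [e1, e2, e3, ite_mul, zero_mul, Finset.sum_ite_eq, Finset.mem_univ, if_true,
    Finset.sum_const_zero, mul_zero, add_zero, mul_add, Finset.mul_sum]
  congr 1
  · exact Finset.sum_congr rfl fun i _ => by ring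
  · exact Finset.sum_congr rfl fun i _ => by ring

theorem GA_qq (A B : V n) : GA (fx n) (fy n) (qq : VV n → ℝ) z A B =
    2 * ∑ i, qv i z * (A i - B i) := by
  unfold GA
  simp only [fx_Gr, fy_Gr, dx_qq, dy_qq, Finset.mul_sum, ← Finset.sum_add_distrib]
  exact Finset.sum_congr rfl fun i _ => by ring

theorem TH_qq (A B : V n) : TH (fx n) (fy n) (qq : VV n → ℝ) z A B =
    2 * ∑ i, (A i - B i) ^ 2 := by
  rw [f_TH isOpen_univ contDiff_qq.contDiffOn (mem_univ z)]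
  have e1 : ∀ i j, dx i (dx j (qq : VV n → ℝ)) z = if i = j then 2 else 0 := fun i j => by
    have : dx j (qq : VV n → ℝ) = fun z : VV n => 2 * qv j z := funext fun z => dx_qq j z
    rw [this, dx_eq, dd_const_mul, ← dx_eq, dx_qv]
    simp only [eq_comm (a := j)]
    split_ifs <;> norm_num
  have e2 : ∀ i j, dx i (dy j (qq : VV n → ℝ)) z = if i = j then -2 else 0 := fun i j => by
    have : dy j (qq : VV n → ℝ) = fun z : VV n => -2 * qv j z := funext fun z => dy_qq j z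
    rw [this, dx_eq, dd_const_mul, ← dx_eq, dx_qv]
    simp only [eq_comm (a := j)]
    split_ifs <;> norm_num
  have e3 : ∀ i j, dy i (dy j (qq : VV n → ℝ)) z = if i = j then 2 else 0 := fun i j => by
    have : dy j (qq : VV n → ℝ) = fun z : VV n => -2 * qv j z := funext fun z => dy_qq j z
    rw [this, dy_eq, dd_const_mul, ← dy_eq, dy_qv]
    simp only [eq_comm (a := j)]
    split_ifs <;> norm_num
  simp only [e1, e2, e3, ite_mul, zero_mul, Finset.sum_ite_eq, Finset.mem_univ, if_true,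
    Finset.mul_sum, ← Finset.sum_add_distrib]
  exact Finset.sum_congr rfl fun i _ => by ring

/-! ## The weight -/

/-- The model weight. -/
def Wm (Φ S : ℝ → ℝ) (l : V n → ℝ) (z : VV n) : ℝ := Φ (uu0 l z) + Real.exp (uu0 l z) * S (qq z)

theorem Wm_sm (hΦ : ContDiff ℝ ∞ Φ) (hS : ContDiff ℝ ∞ S) (hl : ContDiff ℝ ∞ l) :
    ContDiff ℝ ∞ (Wm Φ S l) :=
  (hΦ.comp (uu0_sm hl)).add ((uu0_sm hl).exp.mul (hS.comp contDiff_qq))

theorem dx_Wm (hl : ContDiff ℝ ∞ l) (hΦ : ∀ t, HasDerivAt Φ (Φ₁ t) t)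
    (hS : ∀ t, HasDerivAt S (S₁ t) t) (i : Fin n) (z : VV n) : dx i (Wm Φ S l) z =
    (Φ₁ (uu0 l z) + Real.exp (uu0 l z) * S (qq z)) * pd i l z.1 +
      2 * (Real.exp (uu0 l z) * S₁ (qq z)) * qv i z := by
  have du : DifferentiableAt ℝ (uu0 l) z := (uu0_sm hl).differentiable (by simp) z
  have h1 : DifferentiableAt ℝ (fun z => Φ (uu0 l z)) z :=
    (hΦ _).differentiableAt.comp z du
  have h2 : DifferentiableAt ℝ (fun z => Real.exp (uu0 l z)) z := du.exp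
  have h3 : DifferentiableAt ℝ (fun z : VV n => S (qq z)) z :=
    (hS _).differentiableAt.comp z (diff_qq z)
  have e : (Wm Φ S l) = fun z => Φ (uu0 l z) + Real.exp (uu0 l z) * S (qq z) := rfl
  rw [e, dx_eq, dd_add h1 (h2.fun_mul h3), dd_mul h2 h3, dd_comp (hΦ _) du,
    dd_comp (Real.hasDerivAt_exp _) du, dd_comp (hS _) (diff_qq z), ← dx_eq, ← dx_eq, dx_qq,
    dx_uu0 hl]
  ring

theorem dy_Wm (hl : ContDiff ℝ ∞ l) (hΦ : ∀ t, HasDerivAt Φ (Φ₁ t) t)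
    (hS : ∀ t, HasDerivAt S (S₁ t) t) (i : Fin n) (z : VV n) : dy i (Wm Φ S l) z =
    (Φ₁ (uu0 l z) + Real.exp (uu0 l z) * S (qq z)) * pd i l z.2 -
      2 * (Real.exp (uu0 l z) * S₁ (qq z)) * qv i z := by
  have du : DifferentiableAt ℝ (uu0 l) z := (uu0_sm hl).differentiable (by simp) z
  have h1 : DifferentiableAt ℝ (fun z => Φ (uu0 l z)) z :=
    (hΦ _).differentiableAt.comp z du
  have h2 : DifferentiableAt ℝ (fun z => Real.exp (uu0 l z)) z := du.exp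
  have h3 : DifferentiableAt ℝ (fun z : VV n => S (qq z)) z :=
    (hS _).differentiableAt.comp z (diff_qq z)
  have e : (Wm Φ S l) = fun z => Φ (uu0 l z) + Real.exp (uu0 l z) * S (qq z) := rfl
  rw [e, dy_eq, dd_add h1 (h2.fun_mul h3), dd_mul h2 h3, dd_comp (hΦ _) du,
    dd_comp (Real.hasDerivAt_exp _) du, dd_comp (hS _) (diff_qq z), ← dy_eq, ← dy_eq, dy_qq,
    dy_uu0 hl]
  ring

/-- **The Hessian from below.** -/
theorem TH_Wm (hl : ContDiff ℝ ∞ l) (sΦ : ContDiff ℝ ∞ Φ) (sΦ₁ : ContDiff ℝ ∞ Φ₁)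
    (hΦ : ∀ t, HasDerivAt Φ (Φ₁ t) t) (hΦ₁ : ∀ t, HasDerivAt Φ₁ (Φ₂ t) t)
    (sS : ContDiff ℝ ∞ S) (sS₁ : ContDiff ℝ ∞ S₁) (hS : D2 S S₁ S₂)
    (h1 : ∀ i j, pd i (pd j l) z.1 = if i = j then s else 0)
    (h2 : ∀ i j, pd i (pd j l) z.2 = if i = j then s else 0)
    (p1 : 0 ≤ S₁ (qq z)) (p2 : 0 ≤ S₂ (qq z))
    (hk : 2 * (Real.exp (uu0 l z) * S₁ (qq z)) * qq z ≤
      Φ₂ (uu0 l z) + Real.exp (uu0 l z) * S (qq z)) (A B : V n) :
    s * (Φ₁ (uu0 l z) + Real.exp (uu0 l z) * S (qq z)) * (∑ i, A i ^ 2 + ∑ i, B i ^ 2) ≤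
      TH (fx n) (fy n) (Wm Φ S l) z A B := by
  have cu : Cp (univ : Set (VV n)) (uu0 l) Φ Φ₁ Φ₂ :=
    Cp.of (uu0_sm hl).contDiffOn sΦ sΦ₁ hΦ hΦ₁
  have cq : Cp (univ : Set (VV n)) qq S S₁ S₂ :=
    Cp.of contDiff_qq.contDiffOn sS sS₁ hS.d1 hS.d2
  have o1 := H644.Ch.ok_fx (n := n) isOpen_univ
  have o2 := H644.Ch.ok_fy (n := n) isOpen_univ
  have h := H644.Ch.TH_weight o1 o2 cu cq (mem_univ z) A B
  have e : (Wm Φ S l) = fun z => Φ (uu0 l z) + Real.exp (uu0 l z) * S (qq z) := rfl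
  rw [e, h, TH_uu hl h1 h2, TH_qq, GA_qq]
  set X := GA (fx n) (fy n) (uu0 l) z A B
  set Y := ∑ i, qv i z * (A i - B i)
  set D := ∑ i, (A i - B i) ^ 2
  set T := ∑ i, A i ^ 2 + ∑ i, B i ^ 2
  set E := Real.exp (uu0 l z)
  have hE : 0 < E := Real.exp_pos _
  have hY : Y ^ 2 ≤ qq z * D := by
    rw [qq_eq]
    exact Finset.sum_mul_sq_le_sq_mul_sq _ _ _
  have hq := qq_nonneg z
  have hD : 0 ≤ D := Finset.sum_nonneg fun _ _ => sq_nonneg _
  -- `4 E S₁ X Y ≥ -(2 E S₁ q X² + 2 E S₁ D)`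
  have key : -(qq z * X ^ 2 + D) ≤ 2 * (X * Y) := by
    rcases hq.lt_or_eq with h0 | h0
    · have e1 : 0 ≤ (qq z * X + Y) ^ 2 := sq_nonneg _
      have e2 : qq z * (-(qq z * X ^ 2 + D)) ≤ qq z * (2 * (X * Y)) := by nlinarith
      exact le_of_mul_le_mul_left e2 h0
    · rw [← h0] at hY ⊢
      have : Y = 0 := by nlinarith [sq_nonneg Y]
      rw [this]
      linarith
  have key2 := mul_le_mul_of_nonneg_left key (mul_nonneg (mul_nonneg two_pos.le hE.le) p1)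
  have key3 := mul_le_mul_of_nonneg_right hk (sq_nonneg X)
  have key4 : 0 ≤ E * (S₂ (qq z) * (2 * Y) ^ 2) := by positivity
  nlinarith [key2, key3, key4]

end Vale.Agent.P088.R2.H312.S
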